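import Vale.Agent.P141.Defs

/-! The analytic step: sums of bumps. -/

open MeasureTheory Filter Topology Set
open scoped SchwartzMap ENNReal NNReal ContDiff

namespace Vale.Agent.P141

theorem bump : ∃ φ : ℝ → ℝ, ContDiff ℝ ∞ φ ∧ (∀ u, 0 ≤ φ u) ∧ (∀ u, φ u ≤ 1) ∧
    (∀ u, |u| ≤ 2 / 5 → φ u = 1) ∧ ∀ u, φ u ≠ 0 → |u| < 1 / 2 := by
  let φ : ContDiffBump (0 : ℝ) := ⟨2 / 5, 1 / 2, by norm_num, by norm_num⟩
  refine ⟨φ, φ.contDiff, fun _ => φ.nonneg, fun _ => φ.le_one, fun u hu =>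
    φ.one_of_mem_closedBall (by simpa using hu), fun u hu => not_le.1 fun h => hu ?_⟩
  exact φ.zero_of_le_dist (by simpa [φ] using h)

theorem comb (A : Finset ℤ) (v : ℤ → ℝ) (hv : ∀ a, 0 ≤ v a) (hA : ∑ a ∈ A, v a ≤ 9) {p : ℝ≥0∞}
    (hp : 1 < p) : ∃ (f : 𝓢(ℝ, ℂ)) (g : ℝ → ℝ), (∀ y, f y = g y) ∧ Continuous g ∧ (∀ y, 0 ≤ g y) ∧
      (∀ a ∈ A, ∀ y : ℝ, |y - a| ≤ 2 / 5 → v a ^ (p⁻¹).toReal ≤ g y) ∧
      (∀ y, g y ≠ 0 → ∃ a ∈ A, |y - a| < 1 / 2) ∧ eLpNorm f p volume ≤ 9 := by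
  obtain ⟨φ, h1, h2, h3, h4, h5⟩ := bump
  set α := (p⁻¹).toReal with hα
  have hc : ∀ a, 0 ≤ v a ^ α := fun a => Real.rpow_nonneg (hv a) _
  let g : ℝ → ℝ := fun y => ∑ a ∈ A, v a ^ α * φ (y - a)
  have g1 : ContDiff ℝ ∞ g := ContDiff.sum fun a _ =>
    contDiff_const.mul (h1.comp (contDiff_id.sub contDiff_const))
  have g2 : ∀ y, 0 ≤ g y := fun y => Finset.sum_nonneg fun a _ => mul_nonneg (hc a) (h2 _)
  have g3 : ∀ y, g y ≠ 0 → ∃ a ∈ A, |y - a| < 1 / 2 := fun y hy => by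
    obtain ⟨a, ha, h⟩ := Finset.exists_ne_zero_of_sum_ne_zero hy
    exact ⟨a, ha, h5 _ (right_ne_zero_of_mul h)⟩
  have g4 : ∀ a ∈ A, ∀ y : ℝ, |y - a| < 1 / 2 → g y ≤ v a ^ α := fun a ha y hy => by
    have : g y = v a ^ α * φ (y - a) := Finset.sum_eq_single_of_mem a ha fun b _ hb => by
      refine mul_eq_zero_of_right _ (by_contra fun h => hb ?_)
      have h6 := abs_lt.1 (h5 _ h)
      have h7 := abs_lt.1 hy
      have h8 : ((b - a : ℤ) : ℝ) < (1 : ℤ) := by push_cast; linarith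
      have h9 : ((a - b : ℤ) : ℝ) < (1 : ℤ) := by push_cast; linarith
      rw [Int.cast_lt] at h8 h9
      omega
    exact this ▸ mul_le_of_le_one_right (hc a) (h3 _)
  have g5 : HasCompactSupport fun y => (g y : ℂ) := by
    refine HasCompactSupport.intro (K := ⋃ a ∈ A, Icc (a - 1 / 2 : ℝ) (a + 1 / 2))
      (A.isCompact_biUnion fun _ _ => isCompact_Icc) fun y hy => ?_
    refine Complex.ofReal_eq_zero.2 (by_contra fun h => hy ?_)
    obtain ⟨a, ha, h6⟩ := g3 y h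
    exact mem_biUnion ha ⟨by linarith [(abs_lt.1 h6).1], by linarith [(abs_lt.1 h6).2]⟩
  refine ⟨g5.toSchwartzMap (Complex.ofRealCLM.contDiff.comp g1), g, fun _ => rfl, g1.continuous, g2,
    fun a ha y hy => ?_, g3, ?_⟩
  · refine le_trans ?_ (Finset.single_le_sum (f := fun a : ℤ => v a ^ α * φ (y - a))
      (fun b _ => mul_nonneg (hc b) (h2 _)) ha)
    simp only [h4 _ hy, mul_one, le_refl]
  change eLpNorm (fun y => (g y : ℂ)) p volume ≤ 9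
  have hn : ∀ y, ‖(g y : ℂ)‖ = g y := fun y => by rw [Complex.norm_real, Real.norm_of_nonneg (g2 y)]
  rcases eq_or_ne p ⊤ with rfl | hp'
  · rw [eLpNorm_exponent_top]
    refine (eLpNormEssSup_le_of_ae_bound (C := 1) (Eventually.of_forall fun y => ?_)).trans
      (by simp)
    rw [hn]
    by_cases h : g y = 0
    · exact h ▸ zero_le_one
    · obtain ⟨a, ha, h6⟩ := g3 y h
      simpa [hα] using g4 a ha y h6
  have hp0 : p ≠ 0 := (zero_lt_one.trans hp).ne'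
  have hq : 1 < p.toReal := by
    rw [← ENNReal.toReal_one]
    exact ENNReal.toReal_strict_mono hp' hp
  have hq0 : 0 < p.toReal := by linarith
  rw [eLpNorm_eq_lintegral_rpow_enorm_toReal hp0 hp']
  have h6 : ∀ y, ‖(g y : ℂ)‖ₑ ^ p.toReal ≤ ∑ a ∈ A,
      (Ioo (a - 1 / 2 : ℝ) (a + 1 / 2)).indicator (fun _ => ENNReal.ofReal (v a)) y := by
    intro y
    rw [← ofReal_norm, hn, ENNReal.ofReal_rpow_of_nonneg (g2 y) hq0.le]
    by_cases h : g y = 0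
    · simp [h, Real.zero_rpow hq0.ne']
    obtain ⟨a, ha, h6⟩ := g3 y h
    refine le_trans ?_ (Finset.single_le_sum (fun _ _ => zero_le) ha)
    rw [indicator_of_mem (show y ∈ Ioo (a - 1 / 2 : ℝ) (a + 1 / 2) from
      ⟨by linarith [(abs_lt.1 h6).1], by linarith [(abs_lt.1 h6).2]⟩)]
    refine ENNReal.ofReal_le_ofReal ((Real.rpow_le_rpow (g2 y) (g4 a ha y h6) hq0.le).trans_eq ?_)
    rw [← Real.rpow_mul (hv a), hα, ENNReal.toReal_inv, inv_mul_cancel₀ hq0.ne', Real.rpow_one]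
  have h7 : ∫⁻ y, ‖(g y : ℂ)‖ₑ ^ p.toReal ≤ 9 := by
    refine (lintegral_mono h6).trans ?_
    rw [lintegral_finsetSum _ fun a _ => measurable_const.indicator measurableSet_Ioo]
    simp only [lintegral_indicator_const measurableSet_Ioo, Real.volume_Ioo,
      add_sub_sub_cancel, add_halves, ENNReal.ofReal_one, mul_one]
    rw [← ENNReal.ofReal_sum_of_nonneg fun a _ => hv a]
    exact (ENNReal.ofReal_le_ofReal hA).trans_eq (by simp)
  refine (ENNReal.rpow_le_rpow h7 (by positivity)).trans ?_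
  refine (ENNReal.rpow_le_rpow_of_exponent_le (by norm_num) (z := 1) ?_).trans_eq (by simp)
  exact (div_le_one hq0).2 hq.le

theorem low {f₁ f₂ f₃ : 𝓢(ℝ, ℂ)} {g₁ g₂ g₃ : ℝ → ℝ} (e₁ : ∀ y, f₁ y = g₁ y) (e₂ : ∀ y, f₂ y = g₂ y)
    (e₃ : ∀ y, f₃ y = g₃ y) (c₁ : Continuous g₁) (c₂ : Continuous g₂) (c₃ : Continuous g₃)
    (n₁ : ∀ y, 0 ≤ g₁ y) (n₂ : ∀ y, 0 ≤ g₂ y) (n₃ : ∀ y, 0 ≤ g₃ y) {B x t₀ lam : ℝ} (hB : 1 ≤ B)
    (hs : ∀ t, g₁ (x - t) ≠ 0 → g₃ (x - 3 * t) ≠ 0 → t ∈ Icc (1 / 2) B) (hl0 : 0 < lam)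
    (hl : ∀ t, |t - t₀| ≤ 1 / 10 → lam ≤ g₁ (x - t) * g₂ (x - 2 * t) * g₃ (x - 3 * t)) :
    lam / (5 * B) ≤ ‖THT f₁ f₂ f₃ x‖ := by
  let G : ℝ → ℝ := fun t => g₁ (x - t) * g₂ (x - 2 * t) * g₃ (x - 3 * t)
  have G0 : ∀ t, 0 ≤ G t := fun t => mul_nonneg (mul_nonneg (n₁ _) (n₂ _)) (n₃ _)
  have G1 : ∀ t, G t ≠ 0 → t ∈ Icc (1 / 2) B := fun t h =>
    hs t (left_ne_zero_of_mul (left_ne_zero_of_mul h)) (right_ne_zero_of_mul h)
  let H : ℝ → ℝ := fun t => G t / max t (1 / 2)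
  have hm : ∀ t : ℝ, 0 < max t (1 / 2) := fun t => lt_max_of_lt_right (by norm_num)
  have H0 : ∀ t, 0 ≤ H t := fun t => div_nonneg (G0 t) (hm t).le
  have H1 : ∀ t, t ∉ Icc (1 / 2) B → H t = 0 := fun t ht => by
    have : G t = 0 := by_contra fun h => ht (G1 t h)
    simp [H, this]
  have H2 : Integrable H := Continuous.integrable_of_hasCompactSupport
    (Continuous.div (by fun_prop) (by fun_prop) fun t => (hm t).ne')
    (HasCompactSupport.intro isCompact_Icc H1)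
  have H3 : ∀ t : ℝ, f₁ (x - t) * f₂ (x - 2 * t) * f₃ (x - 3 * t) / (t : ℂ) = H t := fun t => by
    have : G t / t = H t := by
      by_cases h : G t = 0
      · simp [H, h]
      · simp only [H, max_eq_left (G1 t h).1]
    rw [e₁, e₂, e₃, ← this]
    simp [G]
  have h1 : THT f₁ f₂ f₃ x = (∫ t, H t : ℝ) := by
    refine Tendsto.limUnder_eq (tendsto_const_nhds.congr' ?_)
    filter_upwards [prod_mem_prod (Ioo_mem_nhdsGT (show (0 : ℝ) < 1 / 2 by norm_num))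
      (eventually_gt_atTop B)] with q hq
    simp only [trunc, H3]
    rw [setIntegral_eq_integral_of_forall_compl_eq_zero, integral_complex_ofReal]
    intro t ht
    refine Complex.ofReal_eq_zero.2 (H1 t fun h => ht ?_)
    have h2 : |t| = t := abs_of_nonneg (le_trans (by norm_num) h.1)
    exact ⟨h2.symm ▸ hq.1.2.trans_le h.1, h2.symm ▸ h.2.trans_lt hq.2⟩
  rw [h1, Complex.norm_real]
  refine le_trans ?_ (Real.le_norm_self _)
  have h2 := integral_mono (f := (Icc (t₀ - 1 / 10) (t₀ + 1 / 10)).indicator fun _ => lam / B)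
    ((integrable_indicator_iff measurableSet_Icc).2 (integrableOn_const (by simp))) H2 fun t => by
    by_cases ht : t ∈ Icc (t₀ - 1 / 10) (t₀ + 1 / 10)
    · rw [indicator_of_mem ht]
      have h3 : lam ≤ G t := hl t (abs_le.2 ⟨by linarith [ht.1], by linarith [ht.2]⟩)
      have h4 := G1 t (hl0.trans_le h3).ne'
      exact div_le_div₀ (G0 t) h3 (hm t) (max_le h4.2 (by linarith))
    · rw [indicator_of_notMem ht]
      exact H0 t
  rw [integral_indicator_const _ measurableSet_Icc, Real.volume_real_Icc_of_le (by linarith)] at h2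
  refine le_trans (le_of_eq ?_) h2
  rw [smul_eq_mul]
  ring

/-- The inequality on the integers. -/
theorem step1 {p₁ p₂ p₃ r : ℝ≥0∞} (h : Holder p₁ p₂ p₃ r) (hb : BoundedAt p₁ p₂ p₃ r) :
    ∃ K : ℝ, 0 ≤ K ∧ ∀ (M : ℕ) (Y : Finset ℤ) (τ : ℤ → ℤ) (v₁ v₂ v₃ : ℤ → ℝ) (lam : ℝ), 0 < M →
      0 < lam → (∀ a, 0 ≤ v₁ a) → (∀ a, 0 ≤ v₂ a) → (∀ a, 0 ≤ v₃ a) →
      ∑ a ∈ Finset.Ico (-9 * M : ℤ) 0, v₁ a ≤ 9 → ∑ a ∈ Finset.Ico (-9 * M : ℤ) 0, v₂ a ≤ 9 →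
      ∑ a ∈ Finset.Ico (-9 * M : ℤ) 0, v₃ a ≤ 9 →
      (∀ x ∈ Y, 0 ≤ x ∧ x < M ∧ 2 * M ≤ τ x ∧ τ x < 3 * M ∧ lam ≤ v₁ (x - τ x) ^ (p₁⁻¹).toReal *
        v₂ (x - 2 * τ x) ^ (p₂⁻¹).toReal * v₃ (x - 3 * τ x) ^ (p₃⁻¹).toReal) →
      lam * (Y.card : ℝ) ^ (1 / r.toReal) ≤ K * M := by
  obtain ⟨C, hC⟩ := hb
  obtain ⟨h1, h2, h3, h4, h5, -⟩ := h
  have hr : 0 < r.toReal := ENNReal.toReal_pos h4.ne' h5.ne
  refine ⟨25 * 5 ^ (1 / r.toReal) * (C * 9 * 9 * 9), by positivity,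
    fun M Y τ v₁ v₂ v₃ lam hM hl n₁ n₂ n₃ s₁ s₂ s₃ hY => ?_⟩
  have hM' : (1 : ℝ) ≤ M := by exact_mod_cast hM
  have sub : ∀ {v : ℤ → ℝ} {a b : ℤ}, (∀ a, 0 ≤ v a) → ∑ a ∈ Finset.Ico (-9 * M : ℤ) 0, v a ≤ 9 →
      -9 * M ≤ a → b ≤ 0 → ∑ a ∈ Finset.Ico a b, v a ≤ 9 := fun hv hs ha hb =>
    (Finset.sum_le_sum_of_subset_of_nonneg (Finset.Ico_subset_Ico ha hb) fun a _ _ => hv a).trans hs
  obtain ⟨f₁, g₁, e₁, c₁, m₁, l₁, z₁, b₁⟩ := comb (Finset.Ico (-3 * M) (-M)) v₁ n₁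
    (sub n₁ s₁ (by omega) (by omega)) h1
  obtain ⟨f₂, g₂, e₂, c₂, m₂, l₂, -, b₂⟩ := comb _ v₂ n₂ s₂ h2
  obtain ⟨f₃, g₃, e₃, c₃, m₃, l₃, z₃, b₃⟩ := comb (Finset.Ico (-9 * M) (-5 * M)) v₃ n₃
    (sub n₃ s₃ le_rfl (by omega)) h3
  let E : Set ℝ := ⋃ a ∈ Y, Icc (a - 1 / 10 : ℝ) (a + 1 / 10)
  have hE : volume E = ENNReal.ofReal (Y.card / 5) := by
    rw [measure_biUnion_finset _ fun _ _ => measurableSet_Icc]
    · simp only [Real.volume_Icc, add_sub_sub_cancel, Finset.sum_const, nsmul_eq_mul]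
      rw [← ENNReal.ofReal_natCast, ← ENNReal.ofReal_mul (by positivity)]
      congr 1
      ring
    · intro a _ b _ hab
      refine disjoint_left.2 fun y ha hb => hab ?_
      have h8 : ((b - a : ℤ) : ℝ) < (1 : ℤ) := by push_cast; linarith [ha.2, hb.1]
      have h9 : ((a - b : ℤ) : ℝ) < (1 : ℤ) := by push_cast; linarith [ha.1, hb.2]
      rw [Int.cast_lt] at h8 h9
      omega
  have hT : ∀ x ∈ E, lam / (5 * (5 * M)) ≤ ‖THT f₁ f₂ f₃ x‖ := by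
    intro x hx
    obtain ⟨a, ha, hx1, hx2⟩ := mem_iUnion₂.1 hx
    obtain ⟨y1, y2, y3, y4, y5⟩ := hY a ha
    refine low e₁ e₂ e₃ c₁ c₂ c₃ m₁ m₂ m₃ (t₀ := τ a) (by linarith) (fun t t1 t3 => ?_) hl
      fun t ht => y5.trans ?_
    · obtain ⟨a₁, a1, a2⟩ := z₁ _ t1
      obtain ⟨a₃, a3, a4⟩ := z₃ _ t3
      rw [Finset.mem_Ico, ← Int.cast_le (R := ℝ), ← Int.cast_lt (R := ℝ)] at a1 a3
      push_cast at a1 a3
      rw [abs_lt] at a2 a4
      constructor <;> linarith [a1.1, a1.2, a3.1, a3.2, a2.1, a2.2, a4.1, a4.2]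
    · rw [abs_le] at ht
      refine mul_le_mul (mul_le_mul (l₁ _ ?_ _ ?_) (l₂ _ ?_ _ ?_) (Real.rpow_nonneg (n₂ _) _) (m₁ _))
        (l₃ _ ?_ _ ?_) (Real.rpow_nonneg (n₃ _) _) (mul_nonneg (m₁ _) (m₂ _))
      any_goals (rw [Finset.mem_Ico]; omega)
      all_goals
        push_cast
        rw [abs_le]
        constructor <;> linarith [ht.1, ht.2]
  have h6 : eLpNorm (E.indicator fun _ => lam / (5 * (5 * M))) r volume ≤ C * 9 * 9 * 9 := by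
    refine le_trans (eLpNorm_mono fun x => ?_) ((hC f₁ f₂ f₃).trans (by gcongr))
    by_cases hx : x ∈ E
    · rw [indicator_of_mem hx, Real.norm_of_nonneg (by positivity)]
      exact hT x hx
    · simp [indicator_of_notMem hx]
  rw [eLpNorm_indicator_const (Y.measurableSet_biUnion fun _ _ => measurableSet_Icc) h4.ne' h5.ne,
    hE, ENNReal.ofReal_rpow_of_nonneg (by positivity) (by positivity), ← ofReal_norm,
    Real.norm_of_nonneg (by positivity), ← ENNReal.ofReal_mul (by positivity)] at h6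
  have h7 := ENNReal.toReal_mono (by finiteness) h6
  rw [ENNReal.toReal_ofReal (by positivity), Real.div_rpow (by positivity) (by positivity),
    div_mul_div_comm, div_le_iff₀ (by positivity)] at h7
  refine h7.trans_eq ?_
  simp only [ENNReal.toReal_mul, ENNReal.coe_toReal, ENNReal.toReal_ofNat]
  ring

end Vale.Agent.P141
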