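import Vale.Agent.P141.A1

/-! Reduction modulo a prime, random projection and the tensor power trick. -/

open Finset
open scoped ENNReal

namespace Vale.Agent.P141

theorem per {M : ℕ} [NeZero M] (v : ZMod M → ℝ) (hv : ∀ b, 0 ≤ v b) (h : ∑ b, v b ≤ 1) :
    ∑ a ∈ Ico (-9 * M : ℤ) 0, v a ≤ 9 := by
  have hM : (0 : ℤ) < M := by exact_mod_cast NeZero.pos M
  have h1 : Ico (-9 * M : ℤ) 0 ⊆ (univ ×ˢ range 9).image
      fun q : ZMod M × ℕ => (q.1.val : ℤ) - (q.2 + 1) * M := fun a ha => by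
    rw [mem_Ico] at ha
    have h2 : -9 ≤ a / M := (Int.le_ediv_iff_mul_le hM).2 ha.1
    have h3 : a / M < 0 := (Int.ediv_lt_iff_lt_mul hM).2 (by simpa using ha.2)
    refine mem_image.2 ⟨(a, (-(a / M) - 1).toNat), by simp; omega, ?_⟩
    rw [ZMod.val_intCast, Int.toNat_of_nonneg (by omega), Int.emod_def]
    ring
  refine (sum_le_sum_of_subset_of_nonneg h1 fun _ _ _ => hv _).trans
    ((sum_image_le_of_nonneg fun _ _ => hv _).trans ?_)
  rw [sum_product_right]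
  simp only [Int.cast_sub, Int.cast_mul, Int.cast_natCast, ZMod.natCast_self, mul_zero, sub_zero,
    ZMod.natCast_zmod_val, sum_const, card_range, nsmul_eq_mul]
  push_cast
  linarith

/-- The inequality modulo `M`. -/
theorem step2 {p₁ p₂ p₃ r : ℝ≥0∞} (h : Holder p₁ p₂ p₃ r) (hb : BoundedAt p₁ p₂ p₃ r) :
    ∃ K : ℝ, 0 ≤ K ∧ ∀ (M : ℕ) [NeZero M] (Y : Finset (ZMod M)) (τ : ZMod M → ZMod M)
      (v₁ v₂ v₃ : ZMod M → ℝ) (lam : ℝ), 0 < lam → (∀ a, 0 ≤ v₁ a) → (∀ a, 0 ≤ v₂ a) →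
      (∀ a, 0 ≤ v₃ a) → ∑ a, v₁ a ≤ 1 → ∑ a, v₂ a ≤ 1 → ∑ a, v₃ a ≤ 1 →
      (∀ x ∈ Y, lam ≤ v₁ (x - τ x) ^ (p₁⁻¹).toReal * v₂ (x - 2 * τ x) ^ (p₂⁻¹).toReal *
        v₃ (x - 3 * τ x) ^ (p₃⁻¹).toReal) → lam * (Y.card : ℝ) ^ (1 / r.toReal) ≤ K * M := by
  obtain ⟨K, hK, H⟩ := step1 h hb
  refine ⟨K, hK, fun M _ Y τ v₁ v₂ v₃ lam hl n₁ n₂ n₃ s₁ s₂ s₃ hY => ?_⟩
  have := H M (Y.image fun y => (y.val : ℤ)) (fun x => (τ x).val + 2 * M) (fun a => v₁ a)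
    (fun a => v₂ a) (fun a => v₃ a) lam (NeZero.pos M) hl (fun _ => n₁ _) (fun _ => n₂ _)
    (fun _ => n₃ _) (per v₁ n₁ s₁) (per v₂ n₂ s₂) (per v₃ n₃ s₃) fun x hx => by
      obtain ⟨y, hy, rfl⟩ := mem_image.1 hx
      have h1 := y.val_lt
      have h2 := (τ (y.val : ℤ)).val_lt
      refine ⟨by omega, by omega, by omega, by omega, ?_⟩
      simpa using hY y hy
  rwa [card_image_of_injective _ fun a b h => ZMod.val_injective M (by exact_mod_cast h)] at this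

theorem ker_card {ι : Type} [Fintype ι] [DecidableEq ι] {M : ℕ} [Fact M.Prime] {d : ι → ZMod M}
    (hd : d ≠ 0) : (univ.filter fun c : ι → ZMod M => c ⬝ᵥ d = 0).card * M =
      Fintype.card (ι → ZMod M) := by
  obtain ⟨i, hi⟩ := Function.ne_iff.1 hd
  let l : (ι → ZMod M) →+ ZMod M := AddMonoidHom.mk' (· ⬝ᵥ d) fun a b => add_dotProduct a b d
  have h1 : l.range = ⊤ := AddMonoidHom.range_eq_top.2 fun b =>
    ⟨Pi.single i (b / d i), by simp [l, div_mul_cancel₀ _ hi]⟩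
  have h2 := l.ker.card_mul_index
  rw [AddSubgroup.index_ker, h1, AddSubgroup.card_top, Nat.card_zmod, Nat.card_eq_fintype_card,
    Nat.card_eq_fintype_card, Fintype.card_subtype] at h2
  simpa only [AddMonoidHom.mem_ker, l, AddMonoidHom.mk'_apply] using h2

theorem proj {ι β : Type} [Fintype ι] [DecidableEq ι] [DecidableEq β] {M : ℕ} [Fact M.Prime]
    (Y : Finset β) (e : β → ι → ZMod M) (he : Set.InjOn e Y) (hY : 2 * Y.card ≤ M) :
    ∃ c : ι → ZMod M, Y.card ≤ 2 * (Y.image fun y => c ⬝ᵥ e y).card := by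
  let N : (ι → ZMod M) → Finset (β × β) := fun c =>
    Y.offDiag.filter fun q => c ⬝ᵥ (e q.1 - e q.2) = 0
  have h1 : ∑ c, (N c).card * M ≤ ∑ _c : ι → ZMod M, Y.card * Y.card := by
    simp only [N, card_filter, ← sum_mul]
    rw [sum_comm, sum_mul, sum_const, card_univ, smul_eq_mul]
    have h0 : Y.offDiag.card ≤ Y.card * Y.card := by rw [offDiag_card]; omega
    refine (sum_le_card_nsmul _ _ (Fintype.card (ι → ZMod M)) fun q hq => ?_).trans
      ((Nat.mul_le_mul_right _ h0).trans_eq (by ring))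
    obtain ⟨h1, h2, h3⟩ := mem_offDiag.1 hq
    rw [← card_filter, ker_card (sub_ne_zero.2 fun h => h3 (he h1 h2 h))]
  obtain ⟨c, -, hc⟩ := exists_le_of_sum_le univ_nonempty h1
  refine ⟨c, ?_⟩
  have h2 : Y.card ≤ (Y \ (N c).image Prod.fst).card + (N c).card :=
    card_le_card_sdiff_add_card.trans (Nat.add_le_add_left card_image_le _)
  have h3 : (Y \ (N c).image Prod.fst).card ≤ (Y.image fun y => c ⬝ᵥ e y).card := by
    refine card_le_card_of_injOn (fun y => c ⬝ᵥ e y)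
      (fun y hy => mem_coe.2 (mem_image_of_mem _ (mem_sdiff.1 hy).1)) fun a ha b hb hab => ?_
    refine by_contra fun h => (mem_sdiff.1 ha).2 (mem_image.2 ⟨(a, b), mem_filter.2
      ⟨mem_offDiag.2 ⟨(mem_sdiff.1 ha).1, (mem_sdiff.1 hb).1, h⟩, ?_⟩, rfl⟩)
    rw [dotProduct_sub, sub_eq_zero]
    exact hab
  rcases Nat.eq_zero_or_pos Y.card with h0 | h0
  · omega
  have h4 : (N c).card * 2 * Y.card ≤ Y.card * Y.card :=
    le_trans (by rw [mul_assoc]; exact Nat.mul_le_mul_left _ hY) hc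
  have := Nat.le_of_mul_le_mul_right h4 h0
  omega

theorem push {n M : ℕ} [NeZero M] (A : Finset ℤ) (w : ℤ → ℝ) (hw : ∀ a, 0 ≤ w a)
    (hA : ∑ a ∈ A, w a ≤ 1) (π : (Fin n → ℤ) → ZMod M) :
    ∃ v : ZMod M → ℝ, (∀ b, 0 ≤ v b) ∧ ∑ b, v b ≤ 1 ∧
      ∀ a : Fin n → ℤ, (∀ i, a i ∈ A) → ∏ i, w (a i) ≤ v (π a) := by
  refine ⟨fun b => ∑ a ∈ (Fintype.piFinset fun _ => A) with π a = b, ∏ i, w (a i),
    fun b => sum_nonneg fun a _ => prod_nonneg fun i _ => hw _, ?_, fun a ha => ?_⟩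
  · rw [sum_fiberwise, ← prod_univ_sum]
    exact prod_le_one (fun _ _ => sum_nonneg fun a _ => hw a) fun _ _ => hA
  · exact single_le_sum (f := fun a : Fin n → ℤ => ∏ i, w (a i))
      (fun a _ => prod_nonneg fun i _ => hw _)
      (mem_filter.2 ⟨Fintype.mem_piFinset.2 ha, rfl⟩)

theorem weak {β : Type} [DecidableEq β] (f g : β → ℝ) {K : ℝ} (Z : Finset β)
    (h : ∀ Y ⊆ Z, ∀ x ∈ Y, (∀ y ∈ Y, g x ≤ g y) → f x * Y.card ≤ K) :
    ∀ Y ⊆ Z, ∑ y ∈ Y, f y ≤ K * harmonic Y.card := by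
  intro Y
  induction Y using Finset.induction_on_min_value g with
  | empty => simp
  | insert a s ha hs ih =>
    intro hZ
    have h1 := h _ hZ a (mem_insert_self _ _) fun y hy =>
      (mem_insert.1 hy).elim (fun e => e ▸ le_rfl) (hs y)
    have h2 := ih ((subset_insert _ _).trans hZ)
    rw [card_insert_of_notMem ha, ← le_div_iff₀ (by positivity)] at h1
    rw [sum_insert ha, card_insert_of_notMem ha, harmonic_succ]
    push_cast at h1 ⊢
    rw [mul_add, ← div_eq_mul_inv]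
    linarith

theorem le_one_of_pow {S K L : ℝ} (h : ∀ n : ℕ, S ^ n ≤ K * (1 + n * L)) : S ≤ 1 := by
  by_contra hS
  have hS := not_le.1 hS
  have h1 := ((tendsto_pow_const_div_const_pow_of_one_lt 0 hS).const_mul K).add
    ((tendsto_pow_const_div_const_pow_of_one_lt 1 hS).const_mul (K * L))
  rw [mul_zero, mul_zero, add_zero] at h1
  obtain ⟨n, hn⟩ := (h1.eventually (gt_mem_nhds zero_lt_one)).exists
  have h2 : 0 < S ^ n := by positivity
  rw [← mul_div_assoc, ← mul_div_assoc, ← add_div, div_lt_one h2] at hn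
  nlinarith [h n]

/-- The sharp discrete inequality. -/
theorem kakeya {p₁ p₂ p₃ r : ℝ≥0∞} (h : Holder p₁ p₂ p₃ r) (hr : r < 1)
    (hb : BoundedAt p₁ p₂ p₃ r) (G A₁ A₂ A₃ : Finset ℤ) (τ : ℤ → ℤ) (w₁ w₂ w₃ : ℤ → ℝ)
    (hG : ∀ x ∈ G, x - τ x ∈ A₁ ∧ x - 2 * τ x ∈ A₂ ∧ x - 3 * τ x ∈ A₃)
    (n₁ : ∀ a, 0 ≤ w₁ a) (n₂ : ∀ a, 0 ≤ w₂ a) (n₃ : ∀ a, 0 ≤ w₃ a)
    (s₁ : ∑ a ∈ A₁, w₁ a ≤ 1) (s₂ : ∑ a ∈ A₂, w₂ a ≤ 1) (s₃ : ∑ a ∈ A₃, w₃ a ≤ 1) :
    ∑ x ∈ G, (w₁ (x - τ x) ^ (p₁⁻¹).toReal * w₂ (x - 2 * τ x) ^ (p₂⁻¹).toReal *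
      w₃ (x - 3 * τ x) ^ (p₃⁻¹).toReal) ^ (r.toReal / (1 - r.toReal)) ≤ 1 := by
  classical
  obtain ⟨K, hK, H⟩ := step2 h hb
  have r0 : 0 < r.toReal := ENNReal.toReal_pos h.2.2.2.1.ne' h.2.2.2.2.1.ne
  have r1 : r.toReal < 1 := ENNReal.toReal_one ▸ ENNReal.toReal_strict_mono ENNReal.one_ne_top hr
  set ρ := r.toReal
  set s := ρ / (1 - ρ) with hs
  have s0 : 0 < s := div_pos r0 (sub_pos.2 r1)
  set α₁ := (p₁⁻¹).toReal
  set α₂ := (p₂⁻¹).toReal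
  set α₃ := (p₃⁻¹).toReal
  set u : ℤ → ℝ := fun x => w₁ (x - τ x) ^ α₁ * w₂ (x - 2 * τ x) ^ α₂ * w₃ (x - 3 * τ x) ^ α₃
    with hu
  have u0 : ∀ x, 0 ≤ u x := fun x => mul_nonneg (mul_nonneg (Real.rpow_nonneg (n₁ _) _)
    (Real.rpow_nonneg (n₂ _) _)) (Real.rpow_nonneg (n₃ _) _)
  set D := (G ×ˢ G).sup fun q => (q.2 - q.1).natAbs
  have key : ∀ n : ℕ, ∀ Y ⊆ Fintype.piFinset fun _ : Fin n => G, ∀ x ∈ Y,
      (∀ y ∈ Y, ∏ i, u (x i) ≤ ∏ i, u (y i)) →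
      (∏ i, u (x i)) ^ s * Y.card ≤ (2 ^ (1 / ρ) * K * (4 + 2 * D)) ^ s := by
    intro n Y hY x hx hmin
    set lam := ∏ i, u (x i)
    have l0 : 0 ≤ lam := prod_nonneg fun i _ => u0 (x i)
    rcases l0.eq_or_lt with h0 | h0
    · rw [← h0, Real.zero_rpow s0.ne', zero_mul]
      positivity
    have hc : 1 ≤ Y.card := card_pos.2 ⟨x, hx⟩
    obtain ⟨M, hM, hM1, hM2⟩ := Nat.exists_prime_lt_and_le_two_mul (2 * Y.card + D) (by omega)
    have := Fact.mk hM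
    obtain ⟨c, hc2⟩ := proj Y (fun y i => (y i : ZMod M)) (fun a ha b hb hab => funext fun i => by
      have h1 := (ZMod.intCast_eq_intCast_iff_dvd_sub _ _ _).1 (congrFun hab i)
      have h2 : (b i - a i).natAbs ≤ D := le_sup (f := fun q : ℤ × ℤ => (q.2 - q.1).natAbs)
        (b := (a i, b i)) (mem_product.2 ⟨Fintype.mem_piFinset.1 (hY ha) i,
          Fintype.mem_piFinset.1 (hY hb) i⟩)
      have := Int.eq_zero_of_dvd_of_natAbs_lt_natAbs h1 (by rw [Int.natAbs_natCast]; omega)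
      omega) (by omega)
    let π : (Fin n → ℤ) → ZMod M := fun y => c ⬝ᵥ fun i => (y i : ZMod M)
    have hπ : ∀ (y : Fin n → ℤ) (k : ℤ), π (fun i => y i - k * τ (y i)) =
        π y - k * π fun i => τ (y i) := fun y k => by
      simp only [π, dotProduct, mul_sum, ← sum_sub_distrib]
      exact sum_congr rfl fun i _ => by push_cast; ring
    obtain ⟨v₁, a₁, b₁, c₁⟩ := push A₁ w₁ n₁ s₁ π
    obtain ⟨v₂, a₂, b₂, c₂⟩ := push A₂ w₂ n₂ s₂ π
    obtain ⟨v₃, a₃, b₃, c₃⟩ := push A₃ w₃ n₃ s₃ π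
    have hσ : ∀ b : ZMod M, ∃ y, b ∈ Y.image π → y ∈ Y ∧ π y = b := fun b => by
      by_cases hb : b ∈ Y.image π
      · obtain ⟨y, hy⟩ := mem_image.1 hb
        exact ⟨y, fun _ => hy⟩
      · exact ⟨x, fun h => (hb h).elim⟩
    choose σ hσ using hσ
    have h1 := H M (Y.image π) (fun b => π fun i => τ (σ b i)) v₁ v₂ v₃ lam h0 a₁ a₂ a₃ b₁ b₂ b₃
      fun b hb => by
      obtain ⟨h1, h2⟩ := hσ b hb
      have h3 := fun i => hG _ (Fintype.mem_piFinset.1 (hY h1) i)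
      have e₁ := c₁ _ fun i => (h3 i).1
      have e₂ := c₂ _ fun i => (h3 i).2.1
      have e₃ := c₃ _ fun i => (h3 i).2.2
      have f₁ := hπ (σ b) 1
      simp only [one_mul, Int.cast_one] at f₁
      rw [f₁, h2] at e₁
      rw [hπ, h2, Int.cast_ofNat] at e₂ e₃
      refine (hmin _ h1).trans ?_
      simp only [hu, prod_mul_distrib, Real.finsetProd_rpow _ _ (fun _ _ => n₁ _),
        Real.finsetProd_rpow _ _ (fun _ _ => n₂ _), Real.finsetProd_rpow _ _ (fun _ _ => n₃ _)]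
      have := prod_nonneg (s := univ) fun i _ => n₁ (σ b i - τ (σ b i))
      have := prod_nonneg (s := univ) fun i _ => n₂ (σ b i - 2 * τ (σ b i))
      have := prod_nonneg (s := univ) fun i _ => n₃ (σ b i - 3 * τ (σ b i))
      have := a₁ (b - π fun i => τ (σ b i))
      have := a₂ (b - 2 * π fun i => τ (σ b i))
      gcongr
    have c1 : (1 : ℝ) ≤ Y.card := by exact_mod_cast hc
    have h2 : (Y.card : ℝ) ^ (1 / ρ) ≤ 2 ^ (1 / ρ) * ((Y.image π).card : ℝ) ^ (1 / ρ) := by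
      rw [← Real.mul_rpow zero_le_two (by positivity)]
      exact Real.rpow_le_rpow (by positivity) (by exact_mod_cast hc2) (by positivity)
    have h3 : (M : ℝ) ≤ (4 + 2 * D) * Y.card := by
      have : (M : ℝ) ≤ 2 * (2 * Y.card + D) := by exact_mod_cast hM2
      nlinarith [(D.cast_nonneg : (0 : ℝ) ≤ D)]
    have h4 : lam * (Y.card : ℝ) ^ (1 / s) ≤ 2 ^ (1 / ρ) * K * (4 + 2 * D) := by
      have e : 1 / ρ = 1 / s + 1 := by
        rw [hs]
        field_simp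
        ring
      refine le_of_mul_le_mul_right ?_ (zero_lt_one.trans_le c1)
      rw [mul_assoc, ← Real.rpow_add_one (by positivity), ← e]
      calc _ ≤ lam * (2 ^ (1 / ρ) * ((Y.image π).card : ℝ) ^ (1 / ρ)) := by gcongr
        _ = 2 ^ (1 / ρ) * (lam * ((Y.image π).card : ℝ) ^ (1 / ρ)) := by ring
        _ ≤ 2 ^ (1 / ρ) * (K * ((4 + 2 * D) * Y.card)) :=
          mul_le_mul_of_nonneg_left (h1.trans (by gcongr)) (by positivity)
        _ = _ := by ring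
    have h5 := Real.rpow_le_rpow (by positivity) h4 s0.le
    rwa [Real.mul_rpow h0.le (by positivity), ← Real.rpow_mul (by positivity),
      one_div_mul_cancel s0.ne', Real.rpow_one] at h5
  refine le_one_of_pow (K := (2 ^ (1 / ρ) * K * (4 + 2 * D)) ^ s) (L := Real.log G.card) fun n => ?_
  have h1 := weak (fun x : Fin n → ℤ => (∏ i, u (x i)) ^ s) _ _ (key n) _ subset_rfl
  simp only [← Real.finsetProd_rpow _ _ (fun _ _ => u0 _)] at h1
  rw [← prod_univ_sum (fun _ => G) fun _ x => u x ^ s, prod_const, card_univ, Fintype.card_fin,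
    Fintype.card_piFinset_const] at h1
  refine h1.trans (mul_le_mul_of_nonneg_left ((harmonic_le_one_add_log _).trans_eq ?_)
    (by positivity))
  rw [Nat.cast_pow, Real.log_pow]

end Vale.Agent.P141
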