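import Mathlib

/-! The trilinear Hilbert transform. -/

open MeasureTheory Filter Topology
open scoped SchwartzMap ENNReal NNReal

namespace Vale.Agent.P141

/-- The truncated trilinear Hilbert transform. -/
noncomputable def trunc (f₁ f₂ f₃ : 𝓢(ℝ, ℂ)) (ε R x : ℝ) : ℂ :=
  ∫ t in {t : ℝ | ε < |t| ∧ |t| < R}, f₁ (x - t) * f₂ (x - 2 * t) * f₃ (x - 3 * t) / (t : ℂ)

/-- The trilinear Hilbert transform: the limit of the truncations. -/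
noncomputable def THT (f₁ f₂ f₃ : 𝓢(ℝ, ℂ)) (x : ℝ) : ℂ :=
  limUnder (𝓝[>] (0 : ℝ) ×ˢ (atTop : Filter ℝ)) fun q : ℝ × ℝ => trunc f₁ f₂ f₃ q.1 q.2 x

/-- Holder tuples. -/
def Holder (p₁ p₂ p₃ r : ℝ≥0∞) : Prop :=
  1 < p₁ ∧ 1 < p₂ ∧ 1 < p₃ ∧ 0 < r ∧ r < ∞ ∧ r⁻¹ = p₁⁻¹ + p₂⁻¹ + p₃⁻¹

/-- Boundedness at a tuple of exponents. -/
def BoundedAt (p₁ p₂ p₃ r : ℝ≥0∞) : Prop :=
  ∃ C : ℝ≥0, ∀ f₁ f₂ f₃ : 𝓢(ℝ, ℂ), eLpNorm (THT f₁ f₂ f₃) r volume ≤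
    C * eLpNorm f₁ p₁ volume * eLpNorm f₂ p₂ volume * eLpNorm f₃ p₃ volume

end Vale.Agent.P141
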