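import Mathlib

/-! A discretised Gaussian on a strip that violates the discrete inequality. -/

open Finset

namespace Vale.Agent.P141

/-- the selection -/
def tau (x : ℤ) : ℤ := 2 * (x / 4) - (3 - x % 4)

/-- exponents of the first weight -/
def k₁ (a : ℤ) : ℕ := [708, 334, 140, 82, 140, 334, 708].getD ((a - 3) / 2).toNat 0

/-- exponents of the second weight -/
def k₂ (a : ℤ) : ℕ := [192, 103, 103, 193].getD (a - 3).toNat 0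

/-- exponents of the third weight -/
def k₃ (a : ℤ) : ℕ :=
  [1813, 986, 494, 218, 96, 96, 218, 494, 986, 1813].getD ((a + 9) / 2).toNat 0

/-- reference exponents -/
def mm (x : ℤ) : ℕ :=
  [1814, 1204, 870, 729, 997, 617, 430, 392, 533, 297, 214, 262, 304, 174, 173, 305, 262, 215, 298,
    533, 393, 429, 617, 998, 730, 870, 1205, 1814].getD x.toNat 0

/-- the support -/
def GG : Finset ℤ := (range 28).map ⟨Int.ofNat, fun _ _ => Int.ofNat.inj⟩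

theorem num_mem : ∀ x ∈ GG, x - tau x ∈ ({3, 5, 7, 9, 11, 13, 15} : Finset ℤ) ∧
    x - 2 * tau x ∈ ({3, 4, 5, 6} : Finset ℤ) ∧
    x - 3 * tau x ∈ ({-9, -7, -5, -3, -1, 1, 3, 5, 7, 9} : Finset ℤ) := by decide +kernel

theorem num_q : ∑ a ∈ ({3, 5, 7, 9, 11, 13, 15} : Finset ℤ), (99 / 100 : ℚ) ^ k₁ a ≤ 1 ∧
    ∑ a ∈ ({3, 4, 5, 6} : Finset ℤ), (99 / 100 : ℚ) ^ k₂ a ≤ 1 ∧
    ∑ a ∈ ({-9, -7, -5, -3, -1, 1, 3, 5, 7, 9} : Finset ℤ), (99 / 100 : ℚ) ^ k₃ a ≤ 1 ∧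
    1 < ∑ x ∈ GG, (99 / 100 : ℚ) ^ mm x ∧
    250 * ∑ x ∈ GG, (99 / 100 : ℚ) ^ mm x * k₁ (x - tau x) ≤
      133 * ∑ x ∈ GG, (99 / 100 : ℚ) ^ mm x * mm x ∧
    250 * ∑ x ∈ GG, (99 / 100 : ℚ) ^ mm x * k₂ (x - 2 * tau x) ≤
      133 * ∑ x ∈ GG, (99 / 100 : ℚ) ^ mm x * mm x ∧
    250 * ∑ x ∈ GG, (99 / 100 : ℚ) ^ mm x * k₃ (x - 3 * tau x) ≤
      133 * ∑ x ∈ GG, (99 / 100 : ℚ) ^ mm x * mm x := by decide +kernel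

theorem num_r : ∑ a ∈ ({3, 5, 7, 9, 11, 13, 15} : Finset ℤ), (99 / 100 : ℝ) ^ k₁ a ≤ 1 ∧
    ∑ a ∈ ({3, 4, 5, 6} : Finset ℤ), (99 / 100 : ℝ) ^ k₂ a ≤ 1 ∧
    ∑ a ∈ ({-9, -7, -5, -3, -1, 1, 3, 5, 7, 9} : Finset ℤ), (99 / 100 : ℝ) ^ k₃ a ≤ 1 ∧
    1 < ∑ x ∈ GG, (99 / 100 : ℝ) ^ mm x ∧
    250 * ∑ x ∈ GG, (99 / 100 : ℝ) ^ mm x * k₁ (x - tau x) ≤
      133 * ∑ x ∈ GG, (99 / 100 : ℝ) ^ mm x * mm x ∧
    250 * ∑ x ∈ GG, (99 / 100 : ℝ) ^ mm x * k₂ (x - 2 * tau x) ≤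
      133 * ∑ x ∈ GG, (99 / 100 : ℝ) ^ mm x * mm x ∧
    250 * ∑ x ∈ GG, (99 / 100 : ℝ) ^ mm x * k₃ (x - 3 * tau x) ≤
      133 * ∑ x ∈ GG, (99 / 100 : ℝ) ^ mm x * mm x := by
  have h := num_q
  simp only [← Rat.cast_le (K := ℝ), ← Rat.cast_lt (K := ℝ), Rat.cast_sum, Rat.cast_mul,
    Rat.cast_pow, Rat.cast_div, Rat.cast_ofNat, Rat.cast_one, Rat.cast_natCast] at h
  exact h

theorem num_big {a₁ a₂ a₃ s : ℝ} (h₁ : 0 ≤ a₁) (h₂ : 0 ≤ a₂) (h₃ : 0 ≤ a₃) (hs : 0 ≤ s)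
    (h : (a₁ + a₂ + a₃) * s ≤ 250 / 133) :
    1 < ∑ x ∈ GG, (((99 / 100 : ℝ) ^ k₁ (x - tau x)) ^ a₁ *
      ((99 / 100 : ℝ) ^ k₂ (x - 2 * tau x)) ^ a₂ * ((99 / 100 : ℝ) ^ k₃ (x - 3 * tau x)) ^ a₃) ^ s := by
  obtain ⟨-, -, -, b0, b1, b2, b3⟩ := num_r
  have hρ : (0 : ℝ) < 99 / 100 := by norm_num
  have hl : Real.log (99 / 100) ≤ 0 := Real.log_nonpos hρ.le (by norm_num)
  set ρ : ℝ := 99 / 100
  set l := Real.log ρ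
  have h1 : ∀ (i j k m : ℕ), ρ ^ m + l * (a₁ * s * (ρ ^ m * i) + a₂ * s * (ρ ^ m * j) +
      a₃ * s * (ρ ^ m * k) - ρ ^ m * m) ≤ ((ρ ^ i) ^ a₁ * (ρ ^ j) ^ a₂ * (ρ ^ k) ^ a₃) ^ s := by
    intro i j k m
    have e : ((ρ ^ i) ^ a₁ * (ρ ^ j) ^ a₂ * (ρ ^ k) ^ a₃) ^ s =
        ρ ^ m * Real.exp (l * ((i * a₁ + j * a₂ + k * a₃) * s - m)) := by
      rw [← Real.rpow_natCast_mul hρ.le, ← Real.rpow_natCast_mul hρ.le,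
        ← Real.rpow_natCast_mul hρ.le, ← Real.rpow_add hρ, ← Real.rpow_add hρ,
        ← Real.rpow_mul hρ.le, ← Real.rpow_def_of_pos hρ, ← Real.rpow_natCast, ← Real.rpow_add hρ,
        add_sub_cancel]
    rw [e]
    refine le_trans (le_of_eq ?_) (mul_le_mul_of_nonneg_left (Real.add_one_le_exp _)
      (by positivity))
    ring
  refine b0.trans_le (le_trans ?_ (sum_le_sum fun x _ => h1 _ _ _ (mm x)))
  simp only [sum_add_distrib, sum_sub_distrib, ← mul_sum]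
  refine le_add_of_nonneg_right (mul_nonneg_of_nonpos_of_nonpos hl ?_)
  have m0 : 0 ≤ ∑ x ∈ GG, ρ ^ mm x * mm x :=
    sum_nonneg fun _ _ => mul_nonneg (pow_nonneg hρ.le _) (Nat.cast_nonneg _)
  nlinarith [mul_le_mul_of_nonneg_left b1 (mul_nonneg h₁ hs),
    mul_le_mul_of_nonneg_left b2 (mul_nonneg h₂ hs),
    mul_le_mul_of_nonneg_left b3 (mul_nonneg h₃ hs), mul_le_mul_of_nonneg_right h m0]

end Vale.Agent.P141
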